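import Vale.Agent.P088.R2.H464.Decay

/-!
# Hypoellipticity of second order elliptic systems: decay of the Fourier transform
-/

open Set Filter Topology MeasureTheory
open scoped ContDiff RealInnerProductSpace FourierTransform

noncomputable section

namespace Vale.Agent.P088.R2.H464

universe u v

variable {E : Type u} [NormedAddCommGroup E] [InnerProductSpace ℝ E]
variable {T : Type v}

theorem Lop_add {J : Type*} [Fintype J] (b : J → E) (c : J → J → E → ℂ) (d : J → E → ℂ)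
    (e : E → ℂ) {φ ψ : E → ℂ} (hφ : ContDiff ℝ ∞ φ) (hψ : ContDiff ℝ ∞ ψ) (x : E) :
    Lop b c d e (fun x => φ x + ψ x) x = Lop b c d e φ x + Lop b c d e ψ x := by
  have hd : ∀ {φ : E → ℂ}, ContDiff ℝ ∞ φ → ∀ x, DifferentiableAt ℝ φ x :=
    fun h x => h.differentiable (by simp) x
  have h1 : ∀ v : E, D v (fun x => φ x + ψ x) = fun x => D v φ x + D v ψ x := fun v => by
    funext x; exact D_add_of_diff (hd hφ x) (hd hψ x) v
  have h2 : ∀ v v' : E, D v (D v' (fun x => φ x + ψ x)) x = D v (D v' φ) x + D v (D v' ψ) x := by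
    intro v v'
    rw [h1 v', D_add_of_diff (hd (D_contDiff hφ v') x) (hd (D_contDiff hψ v') x)]
  have h1' : ∀ v : E, D v (fun x => φ x + ψ x) x = D v φ x + D v ψ x := fun v => by rw [h1]
  unfold Lop
  simp only [h2, h1', mul_add, Finset.sum_add_distrib]
  ring

section system

variable {O K : Set E} {L : ℕ} {J : Type*} [Fintype J] {m : ℕ}
variable {b : J → E} {c : Fin m → Fin m → J → J → T → E → ℂ}
    {d : Fin m → Fin m → J → T → E → ℂ} {e : Fin m → Fin m → T → E → ℂ}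

theorem iterate (hc : ∀ p q i j, Cf O K L (c p q i j)) (hd : ∀ p q i, Cf O K L (d p q i))
    (he : ∀ p q, Cf O K L (e p q))
    (H : Ell O K L (fun t x ξ => (sig b c t x ξ).det) (2 * m)) (N : ℕ) : ∀ {r : ℤ} {l : ℕ}
    (_ : l + 2 * N ≤ L) {F : Fin m → T → E → E → ℂ}
    (_ : ∀ q, Sym O K (fun t x ξ => (sig b c t x ξ).det) (2 * m) r (l + 2 * N) (F q)),
    ∃ Φ G : Fin m → T → E → E → ℂ,
      (∀ p, Sym O K (fun t x ξ => (sig b c t x ξ).det) (2 * m) (r - 2) l (Φ p)) ∧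
      (∀ q, Sym O K (fun t x ξ => (sig b c t x ξ).det) (2 * m) (r - N) l (G q)) ∧
      ∀ t ξ, ξ ≠ 0 → ∀ q x, ∑ p, Lop b (fun i j => c p q i j t) (fun i => d p q i t) (e p q t)
        (fun x => ex ξ x * Φ p t x ξ) x = ex ξ x * (F q t x ξ - G q t x ξ) := by
  induction N with
  | zero =>
    intro r l hl F hF
    refine ⟨fun _ _ _ _ => 0, F, fun p => Sym.zero H.pos _ _, fun q => by simpa using hF q,
      fun t ξ _ q x => ?_⟩
    simp only [mul_zero, sub_self]
    refine Finset.sum_eq_zero fun p _ => ?_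
    have h0 : ∀ v : E, D v (fun _ : E => (0 : ℂ)) = fun _ => 0 := fun v => by
      funext x; simp [D]
    unfold Lop
    simp [h0]
  | succ N ih =>
    intro r l hl F hF
    obtain ⟨Φ0, G0, hΦ0, hG0, h0⟩ := step (l := l + 2 * N) hc hd he H (by omega) (F := F)
      (fun q => (hF q).mono le_rfl (by omega))
    obtain ⟨Φ1, G1, hΦ1, hG1, h1⟩ := ih (l := l) (by omega) hG0
    refine ⟨fun p t x ξ => Φ0 p t x ξ + Φ1 p t x ξ, G1,
      fun p => ((hΦ0 p).mono le_rfl (by omega)).add ((hΦ1 p).mono (by omega) le_rfl),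
      fun q => (hG1 q).mono (by push_cast; omega) le_rfl, fun t ξ hξ q x => ?_⟩
    have e1 : ∀ p, Lop b (fun i j => c p q i j t) (fun i => d p q i t) (e p q t)
        (fun x => ex ξ x * (Φ0 p t x ξ + Φ1 p t x ξ)) x =
        Lop b (fun i j => c p q i j t) (fun i => d p q i t) (e p q t)
          (fun x => ex ξ x * Φ0 p t x ξ) x +
        Lop b (fun i j => c p q i j t) (fun i => d p q i t) (e p q t)
          (fun x => ex ξ x * Φ1 p t x ξ) x := fun p => by
      simp only [mul_add]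
      exact Lop_add _ _ _ _ ((ex_contDiff ξ).mul ((hΦ0 p).smooth H t ξ hξ))
        ((ex_contDiff ξ).mul ((hΦ1 p).smooth H t ξ hξ)) x
    simp only [e1, Finset.sum_add_distrib]
    rw [h0 t ξ hξ q x, h1 t ξ hξ q x]
    ring

end system

section integral

variable [MeasurableSpace E] [BorelSpace E] [FiniteDimensional ℝ E]

theorem integrable_of_cont_off {K : Set E} {f : E → ℂ} (hK : IsCompact K) (hf : Continuous f)
    (h0 : ∀ x ∉ K, f x = 0) : Integrable f := by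
  refine hf.integrable_of_hasCompactSupport ?_
  exact HasCompactSupport.intro hK h0

theorem ibp_one {K : Set E} {f : E → ℂ} (hK : IsCompact K) (hf : ContDiff ℝ ∞ f)
    (h0 : ∀ x ∉ K, f x = 0) (e ξ : E) :
    kap * ((⟪e, ξ⟫ : ℝ) : ℂ) * ∫ x, ex ξ x * f x = - ∫ x, ex ξ x * D e f x := by
  have h1 : ∀ x ∉ K, D e f x = 0 := fun x hx => D_congr_off hK.isClosed h0 hx e
  have hc : Continuous (ex ξ : E → ℂ) := (ex_contDiff ξ).continuous
  have h2 := integral_mul_fderiv_eq_neg_fderiv_mul_of_integrable (μ := (volume : Measure E))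
    (f := ex ξ) (g := f) (v := e) ?_ ?_ ?_ (fun x _ => ex_diff ξ x)
    (fun x _ => hf.differentiable (by simp) x)
  · have h3 : ∫ x, ex ξ x * D e f x = -∫ x, D e (ex ξ) x * f x := h2
    rw [h3, neg_neg, ← integral_const_mul]
    refine integral_congr_ae (Eventually.of_forall fun x => ?_)
    simp only [D_ex]
    ring
  · refine integrable_of_cont_off hK ?_ (fun x hx => by simp [h0 x hx])
    have : Continuous (D e (ex ξ)) := (D_contDiff (ex_contDiff ξ) e).continuous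
    exact this.mul hf.continuous
  · refine integrable_of_cont_off hK ?_ (fun x hx => ?_)
    · exact hc.mul (D_contDiff hf e).continuous
    · have := h1 x hx
      unfold D at this
      simp [this]
  · exact integrable_of_cont_off hK (hc.mul hf.continuous) (fun x hx => by simp [h0 x hx])

variable {O K : Set E} {L d : ℕ} {δ : T → E → E → ℂ}

theorem ibp_bound (H : Ell O K L δ d) (M : ℕ) : ∀ (_ : 2 * M ≤ L) {r : ℤ} {F : T → E → E → ℂ}
    (_ : Sym O K δ d r (2 * M) F),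
    ∃ C : ℝ, 0 ≤ C ∧ ∀ t ξ, 1 ≤ ‖ξ‖ → ‖∫ x, ex ξ x * F t x ξ‖ ≤ C * ‖ξ‖ ^ (r - 2 * M) := by
  induction M with
  | zero =>
    intro _ r F hF
    obtain ⟨C, hC, h1⟩ := hF.bound H
    refine ⟨C * volume.real K, by positivity, fun t ξ hξ => ?_⟩
    have h2 : ∫ x, ex ξ x * F t x ξ = ∫ x in K, ex ξ x * F t x ξ := by
      rw [setIntegral_eq_integral_of_forall_compl_eq_zero]
      intro x hx
      simp [hF.off t x hx ξ]
    rw [h2]
    have h3 := norm_setIntegral_le_of_norm_le_const (μ := (volume : Measure E)) (s := K)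
      (f := fun x => ex ξ x * F t x ξ) (C := C * ‖ξ‖ ^ r) H.isCompact.measure_lt_top
      (fun x _ => by rw [norm_mul, norm_ex, one_mul]; exact h1 t x ξ hξ)
    refine h3.trans (le_of_eq ?_)
    simp
    ring
  | succ M ih =>
    intro hM r F hF
    set ob := stdOrthonormalBasis ℝ E with hob
    have hd1 := fun i => hF.deriv H (2 * M + 1) (by omega) (by omega) (ob i)
    choose F1 hF1 hd1 using hd1
    have hd2 := fun i => (hF1 i).deriv H (2 * M) (by omega) (by omega) (ob i)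
    choose F2 hF2 hd2 using hd2
    obtain ⟨C, hC, h1⟩ := ih (by omega) (Sym.sum H.pos Finset.univ fun i _ => hF2 i)
    refine ⟨C, hC, fun t ξ hξ => ?_⟩
    have hξ0 : ξ ≠ 0 := by
      rintro rfl
      simp at hξ
      linarith
    have hn : 0 < ‖ξ‖ := norm_pos_iff.2 hξ0
    have e1 : ∀ i, (kap * ((⟪ob i, ξ⟫ : ℝ) : ℂ)) ^ 2 * ∫ x, ex ξ x * F t x ξ =
        ∫ x, ex ξ x * F2 i t x ξ := by
      intro i
      have f1 := ibp_one H.isCompact (hF.smooth H t ξ hξ0) (fun x hx => hF.off t x hx ξ) (ob i) ξ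
      have g1 : (fun x => ex ξ x * D (ob i) (fun x => F t x ξ) x) = fun x =>
          ex ξ x * F1 i t x ξ := by
        funext x; rw [hd1 i t ξ hξ0 x]
      rw [g1] at f1
      have f2 := ibp_one H.isCompact ((hF1 i).smooth H t ξ hξ0)
        (fun x hx => (hF1 i).off t x hx ξ) (ob i) ξ
      have g2 : (fun x => ex ξ x * D (ob i) (fun x => F1 i t x ξ) x) = fun x =>
          ex ξ x * F2 i t x ξ := by
        funext x; rw [hd2 i t ξ hξ0 x]
      rw [g2] at f2
      linear_combination (kap * ((⟪ob i, ξ⟫ : ℝ) : ℂ)) * f1 - f2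
    have e2 : (kap ^ 2 * (‖ξ‖ : ℂ) ^ 2) * ∫ x, ex ξ x * F t x ξ =
        ∫ x, ex ξ x * ∑ i, F2 i t x ξ := by
      have h3 : (∑ i, (⟪ob i, ξ⟫ : ℝ) ^ 2) = ‖ξ‖ ^ 2 := by
        simpa using ob.sum_sq_norm_inner_right ξ
      have h4 : ∑ i, (kap * ((⟪ob i, ξ⟫ : ℝ) : ℂ)) ^ 2 = kap ^ 2 * (‖ξ‖ : ℂ) ^ 2 := by
        simp only [mul_pow]
        rw [← Finset.mul_sum]
        congr 1
        exact_mod_cast h3
      rw [← h4, Finset.sum_mul]
      simp only [e1, Finset.mul_sum]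
      rw [integral_finsetSum]
      intro i _
      exact integrable_of_cont_off H.isCompact
        ((ex_contDiff ξ).continuous.mul ((hF2 i).smooth H t ξ hξ0).continuous)
        (fun x hx => by simp [(hF2 i).off t x hx ξ])
    have e3 : ‖kap ^ 2 * (‖ξ‖ : ℂ) ^ 2‖ = (2 * Real.pi) ^ 2 * ‖ξ‖ ^ 2 := by
      unfold kap
      simp [abs_of_pos Real.pi_pos]
    have e4 := congrArg norm e2
    rw [norm_mul, e3] at e4
    have h5 := h1 t ξ hξ
    rw [← e4] at h5
    have h6 : ‖ξ‖ ^ 2 * ‖∫ x, ex ξ x * F t x ξ‖ ≤ C * ‖ξ‖ ^ (r - 2 * M) := by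
      refine le_trans ?_ h5
      have : (1 : ℝ) ≤ (2 * Real.pi) ^ 2 := by nlinarith [Real.pi_gt_three]
      have h7 : 0 ≤ ‖ξ‖ ^ 2 * ‖∫ x, ex ξ x * F t x ξ‖ := by positivity
      nlinarith
    have h8 : ‖ξ‖ ^ (r - 2 * ((M + 1 : ℕ) : ℤ)) = ‖ξ‖ ^ (r - 2 * M) / ‖ξ‖ ^ 2 := by
      rw [← zpow_natCast, ← zpow_sub₀ hn.ne']
      congr 1
      push_cast
      ring
    rw [h8, ← mul_div_assoc, le_div_iff₀ (by positivity), mul_comm]
    exact h6

end integral

section decay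

variable [MeasurableSpace E] [BorelSpace E] [FiniteDimensional ℝ E]
variable {O K : Set E} {L : ℕ} {J : Type*} [Fintype J] {m : ℕ}

theorem fourier_eq_ex (f : E → ℂ) (ξ : E) : 𝓕 f ξ = ∫ x, ex ξ x * f x := by
  rw [Real.fourier_eq']
  refine integral_congr_ae (Eventually.of_forall fun x => ?_)
  simp only [smul_eq_mul, ex]
  congr 2
  unfold kap
  push_cast
  ring

/-- Decay of the Fourier transform of `χ w` for weak solutions of elliptic systems. -/
theorem decay {b : J → E} {c : Fin m → Fin m → J → J → T → E → ℂ}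
    {d : Fin m → Fin m → J → T → E → ℂ} {e : Fin m → Fin m → T → E → ℂ}
    (hO : IsOpen O) (hK : IsCompact K) (hKO : K ⊆ O)
    (hc : ∀ p q i j, Cf O K L (c p q i j)) (hd : ∀ p q i, Cf O K L (d p q i))
    (he : ∀ p q, Cf O K L (e p q))
    (hne : ∀ t, ∀ x ∈ O, ∀ ξ, ξ ≠ 0 → (sig b c t x ξ).det ≠ 0)
    (hell : ∃ lam : ℝ, 0 < lam ∧ ∀ t, ∀ x ∈ K, ∀ ξ, lam * ‖ξ‖ ^ (2 * m) ≤ ‖(sig b c t x ξ).det‖)
    {χ : T → E → ℂ} (hχ : Cf O K L χ) (hχ0 : ∀ t, ∀ x ∉ K, χ t x = 0)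
    {w G : Fin m → T → E → ℂ} (hw : ∀ q t, IntegrableOn (w q t) K) {B : ℝ}
    (hB : ∀ q t, ∫ x in K, ‖w q t x‖ ≤ B) (hG : ∀ p, Cf O K L (G p))
    (weak : ∀ t, ∀ φ : Fin m → E → ℂ, (∀ p, ContDiff ℝ ∞ (φ p)) → (∀ p, ∀ x ∉ K, φ p x = 0) →
      ∫ x, ∑ q, w q t x * ∑ p, Lop b (fun i j => c p q i j t) (fun i => d p q i t) (e p q t)
        (φ p) x = ∫ x, ∑ p, G p t x * φ p x)
    (N : ℕ) (hN : 4 * N ≤ L) (q₀ : Fin m) :
    ∃ C : ℝ, 0 ≤ C ∧ ∀ t ξ, 1 ≤ ‖ξ‖ → ‖𝓕 (fun x => χ t x * w q₀ t x) ξ‖ ≤ C * ‖ξ‖ ^ (-(N : ℤ)) := by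
  have hm : 0 < m := q₀.pos
  have H : Ell O K L (fun t x ξ => (sig b c t x ξ).det) (2 * m) :=
    ⟨hO, hK, hKO, pol_det_sig hc, by omega, hne, hell⟩
  set δ : T → E → E → ℂ := fun t x ξ => (sig b c t x ξ).det with hδ
  obtain ⟨Φ, R, hΦ, hR, hid⟩ := iterate hc hd he H N (r := 0) (l := 2 * N) (by omega)
    (F := fun q t x _ => if q = q₀ then χ t x else 0) (fun q => by
      by_cases hq : q = q₀
      · simp only [hq, if_true]
        exact Sym.base (hχ.mono (by omega)) hχ0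
      · simp only [hq, if_false]
        exact Sym.zero' _)
  have hΦG : Sym O K δ (2 * m) (0 - 2) (2 * N) (fun t x ξ => ∑ p, G p t x * Φ p t x ξ) :=
    Sym.sum H.pos _ fun p _ => Sym.coef ((hG p).mono (by omega)) (hΦ p)
  obtain ⟨C1, hC1, h1⟩ := ibp_bound H N (by omega) hΦG
  have hRb := fun q => (hR q).bound H
  choose C2 hC2 h2 using hRb
  have hB0 : ∀ q : Fin m, ∀ t : T, 0 ≤ ∫ x in K, ‖w q t x‖ := fun q t =>
    integral_nonneg fun x => norm_nonneg _
  refine ⟨C1 + ∑ q, C2 q * |B|, add_nonneg hC1 (Finset.sum_nonneg fun q _ =>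
    mul_nonneg (hC2 q) (abs_nonneg _)), fun t ξ hξ => ?_⟩
  have hξ0 : ξ ≠ 0 := by
    rintro rfl
    simp at hξ
    linarith
  have hn : 0 < ‖ξ‖ := norm_pos_iff.2 hξ0
  -- integrability of `w_q · (smooth with support in K)`
  have hint : ∀ (q : Fin m) (f : E → ℂ), ContDiff ℝ ∞ f → (∀ x ∉ K, f x = 0) →
      Integrable (fun x => w q t x * f x) := by
    intro q f hf hf0
    obtain ⟨M, hM⟩ := hK.exists_bound_of_continuousOn hf.continuous.continuousOn
    have h3 : IntegrableOn (fun x => w q t x * f x) K := by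
      refine Integrable.mul_bdd (c := M) (hw q t) hf.continuous.aestronglyMeasurable ?_
      exact (ae_restrict_iff' hK.measurableSet).2 (Eventually.of_forall fun x hx => hM x hx)
    refine (integrableOn_iff_integrable_of_support_subset ?_).1 h3
    intro x hx
    by_contra hxK
    exact hx (by simp [hf0 x hxK])
  have hRs : ∀ q, ContDiff ℝ ∞ (fun x => R q t x ξ) := fun q => (hR q).smooth H t ξ hξ0
  have hχs : ContDiff ℝ ∞ (χ t) :=
    contDiff_of_zero_off hO hK.isClosed hKO (hχ.base.smooth t) (hχ0 t)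
  have hw1 := weak t (fun p x => ex ξ x * Φ p t x ξ)
    (fun p => (ex_contDiff ξ).mul ((hΦ p).smooth H t ξ hξ0))
    (fun p x hx => by simp [(hΦ p).off t x hx ξ])
  simp only [hid t ξ hξ0] at hw1
  have e1 : (fun x => ∑ q, w q t x * (ex ξ x * ((if q = q₀ then χ t x else 0) - R q t x ξ))) =
      fun x => w q₀ t x * (ex ξ x * χ t x) - ∑ q, w q t x * (ex ξ x * R q t x ξ) := by
    funext x
    simp only [mul_sub, Finset.sum_sub_distrib, mul_ite, mul_zero]
    rw [Finset.sum_ite_eq' Finset.univ q₀]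
    simp
  rw [e1, integral_sub (hint q₀ _ ((ex_contDiff ξ).mul hχs) (fun x hx => by simp [hχ0 t x hx]))
    (integrable_finsetSum _ fun q _ => hint q _ ((ex_contDiff ξ).mul (hRs q))
      (fun x hx => by simp [(hR q).off t x hx ξ]))] at hw1
  have e2 : 𝓕 (fun x => χ t x * w q₀ t x) ξ = ∫ x, w q₀ t x * (ex ξ x * χ t x) := by
    rw [fourier_eq_ex]
    refine integral_congr_ae (Eventually.of_forall fun x => ?_)
    simp only
    ring
  have e3 : ∫ x, ∑ p, G p t x * (ex ξ x * Φ p t x ξ) =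
      ∫ x, ex ξ x * ∑ p, G p t x * Φ p t x ξ := by
    refine integral_congr_ae (Eventually.of_forall fun x => ?_)
    simp only [Finset.mul_sum]
    refine Finset.sum_congr rfl fun p _ => by ring
  have e4 : 𝓕 (fun x => χ t x * w q₀ t x) ξ = (∫ x, ex ξ x * ∑ p, G p t x * Φ p t x ξ) +
      ∫ x, ∑ q, w q t x * (ex ξ x * R q t x ξ) := by
    rw [e2, ← e3]
    linear_combination hw1
  have b1 : ‖∫ x, ex ξ x * ∑ p, G p t x * Φ p t x ξ‖ ≤ C1 * ‖ξ‖ ^ (-(N : ℤ)) := by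
    refine (h1 t ξ hξ).trans (mul_le_mul_of_nonneg_left ?_ hC1)
    exact zpow_le_zpow_right₀ hξ (by omega)
  have b2 : ‖∫ x, ∑ q, w q t x * (ex ξ x * R q t x ξ)‖ ≤
      (∑ q, C2 q * |B|) * ‖ξ‖ ^ (-(N : ℤ)) := by
    rw [integral_finsetSum _ (fun q _ => hint q _ ((ex_contDiff ξ).mul (hRs q))
      (fun x hx => by simp [(hR q).off t x hx ξ]))]
    refine (norm_sum_le _ _).trans ?_
    rw [Finset.sum_mul]
    refine Finset.sum_le_sum fun q _ => ?_
    have f1 : ∫ x, w q t x * (ex ξ x * R q t x ξ) = ∫ x in K, w q t x * (ex ξ x * R q t x ξ) := by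
      rw [setIntegral_eq_integral_of_forall_compl_eq_zero]
      intro x hx
      simp [(hR q).off t x hx ξ]
    rw [f1]
    have f2 : ‖∫ x in K, w q t x * (ex ξ x * R q t x ξ)‖ ≤
        ∫ x in K, ‖w q t x‖ * (C2 q * ‖ξ‖ ^ (-(N : ℤ))) := by
      refine norm_integral_le_of_norm_le ((hw q t).norm.mul_const _)
        (Eventually.of_forall fun x => ?_)
      rw [norm_mul, norm_mul, norm_ex, one_mul]
      refine mul_le_mul_of_nonneg_left ?_ (norm_nonneg _)
      simpa using h2 q t x ξ hξ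
    refine f2.trans ?_
    rw [integral_mul_const]
    have : 0 ≤ C2 q * ‖ξ‖ ^ (-(N : ℤ)) := by have := hC2 q; positivity
    calc (∫ x in K, ‖w q t x‖) * (C2 q * ‖ξ‖ ^ (-(N : ℤ)))
        ≤ |B| * (C2 q * ‖ξ‖ ^ (-(N : ℤ))) :=
          mul_le_mul_of_nonneg_right ((hB q t).trans (le_abs_self B)) this
      _ = C2 q * |B| * ‖ξ‖ ^ (-(N : ℤ)) := by ring
  rw [e4]
  calc _ ≤ _ + _ := norm_add_le _ _
    _ ≤ C1 * ‖ξ‖ ^ (-(N : ℤ)) + (∑ q, C2 q * |B|) * ‖ξ‖ ^ (-(N : ℤ)) := add_le_add b1 b2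
    _ = _ := by ring

end decay

end Vale.Agent.P088.R2.H464
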