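import Vale.Agent.P088.R2.H464.Sym

/-!
# Hypoellipticity of second order elliptic systems: the adjoint amplitudes
-/

open Set Filter Topology
open scoped ContDiff RealInnerProductSpace

noncomputable section

namespace Vale.Agent.P088.R2.H464

universe u v

variable {E : Type u} [NormedAddCommGroup E] [InnerProductSpace ℝ E]
variable {T : Type v}

/-- `-2πi` -/
def kap : ℂ := -(2 * Real.pi * Complex.I)

theorem kap_ne : kap ≠ 0 := by
  unfold kap
  simp [Real.pi_ne_zero]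

/-- `e_ξ(x) = exp (-2πi⟨x, ξ⟩)` -/
def ex (ξ x : E) : ℂ := Complex.exp (kap * ((⟪x, ξ⟫ : ℝ) : ℂ))

theorem norm_ex (ξ x : E) : ‖ex ξ x‖ = 1 := by
  have : kap * ((⟪x, ξ⟫ : ℝ) : ℂ) = ((-(2 * Real.pi * ⟪x, ξ⟫) : ℝ) : ℂ) * Complex.I := by
    unfold kap; push_cast; ring
  rw [ex, this, Complex.norm_exp_ofReal_mul_I]

theorem ex_contDiff (ξ : E) : ContDiff ℝ ∞ (ex ξ) := by
  unfold ex
  refine Complex.contDiff_exp.comp (contDiff_const.mul ?_)
  exact Complex.ofRealCLM.contDiff.comp (contDiff_id.inner ℝ contDiff_const)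

theorem ex_diff (ξ x : E) : DifferentiableAt ℝ (ex ξ) x :=
  (ex_contDiff ξ).differentiable (by simp) x

theorem D_ex (ξ e x : E) : D e (ex ξ) x = kap * ((⟪e, ξ⟫ : ℝ) : ℂ) * ex ξ x := by
  unfold D ex
  have h1 : HasFDerivAt (fun x : E => ((⟪x, ξ⟫ : ℝ) : ℂ))
      (Complex.ofRealCLM.comp ((innerSL ℝ ξ : E →L[ℝ] ℝ))) x := by
    have : (fun x : E => ((⟪x, ξ⟫ : ℝ) : ℂ)) = fun x => Complex.ofRealCLM (innerSL ℝ ξ x) := by
      funext x; simp [real_inner_comm]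
    rw [this]
    exact (Complex.ofRealCLM.comp (innerSL ℝ ξ : E →L[ℝ] ℝ)).hasFDerivAt
  have h2 := (h1.const_mul kap).cexp
  rw [h2.fderiv]
  simp [real_inner_comm]
  ring

/-- the operator `∑ c_ij ∂_i ∂_j + ∑ d_i ∂_i + e` in the directions `b` -/
def Lop {J : Type*} [Fintype J] (b : J → E) (c : J → J → E → ℂ) (d : J → E → ℂ) (e : E → ℂ)
    (φ : E → ℂ) (x : E) : ℂ :=
  ∑ i, ∑ j, c i j x * D (b i) (D (b j) φ) x + ∑ i, d i x * D (b i) φ x + e x * φ x

theorem D_ex_mul {φ : E → ℂ} {x : E} (hφ : DifferentiableAt ℝ φ x) (ξ e : E) :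
    D e (fun x => ex ξ x * φ x) x = ex ξ x * (kap * ((⟪e, ξ⟫ : ℝ) : ℂ) * φ x + D e φ x) := by
  rw [D_mul_of_diff (ex_diff ξ x) hφ, D_ex]
  ring

theorem D_contDiff {φ : E → ℂ} (hφ : ContDiff ℝ ∞ φ) (e : E) : ContDiff ℝ ∞ (D e φ) := by
  unfold D
  exact (hφ.fderiv_right (by simp)).clm_apply contDiff_const

theorem D_D_ex_mul {φ : E → ℂ} (hφ : ContDiff ℝ ∞ φ) (ξ e e' x : E) :
    D e (D e' (fun x => ex ξ x * φ x)) x = ex ξ x * (kap ^ 2 * (((⟪e, ξ⟫ : ℝ) : ℂ) *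
      ((⟪e', ξ⟫ : ℝ) : ℂ)) * φ x + kap * (((⟪e', ξ⟫ : ℝ) : ℂ) * D e φ x +
      ((⟪e, ξ⟫ : ℝ) : ℂ) * D e' φ x) + D e (D e' φ) x) := by
  have hd : ∀ x, DifferentiableAt ℝ φ x := fun x => hφ.differentiable (by simp) x
  have hd' : ∀ x, DifferentiableAt ℝ (D e' φ) x := fun x =>
    (D_contDiff hφ e').differentiable (by simp) x
  have h1 : D e' (fun x => ex ξ x * φ x) =
      fun x => ex ξ x * (kap * ((⟪e', ξ⟫ : ℝ) : ℂ) * φ x + D e' φ x) := by
    funext x; exact D_ex_mul (hd x) ξ e'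
  rw [h1, D_ex_mul (φ := fun x => kap * ((⟪e', ξ⟫ : ℝ) : ℂ) * φ x + D e' φ x)
    (((hd x).const_mul _).add (hd' x)),
    D_add_of_diff ((hd x).const_mul _) (hd' x), D_const_mul_of_diff (hd x)]
  ring

theorem Lop_ex_mul {J : Type*} [Fintype J] (b : J → E) (c : J → J → E → ℂ) (d : J → E → ℂ)
    (e : E → ℂ) {φ : E → ℂ} (hφ : ContDiff ℝ ∞ φ) (ξ x : E) :
    Lop b c d e (fun x => ex ξ x * φ x) x = ex ξ x *
      (kap ^ 2 * ((∑ i, ∑ j, c i j x * (((⟪b i, ξ⟫ : ℝ) : ℂ) * ((⟪b j, ξ⟫ : ℝ) : ℂ))) * φ x) +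
      (kap * (∑ i, ∑ j, c i j x * (((⟪b j, ξ⟫ : ℝ) : ℂ) * D (b i) φ x +
        ((⟪b i, ξ⟫ : ℝ) : ℂ) * D (b j) φ x) + ∑ i, d i x * (((⟪b i, ξ⟫ : ℝ) : ℂ) * φ x)) +
      Lop b c d e φ x)) := by
  have hd : ∀ x, DifferentiableAt ℝ φ x := fun x => hφ.differentiable (by simp) x
  unfold Lop
  simp only [D_D_ex_mul hφ, D_ex_mul (hd x)]
  have e1 : ∀ i j, c i j x * (ex ξ x * (kap ^ 2 * (((⟪b i, ξ⟫ : ℝ) : ℂ) *
      ((⟪b j, ξ⟫ : ℝ) : ℂ)) * φ x + kap * (((⟪b j, ξ⟫ : ℝ) : ℂ) * D (b i) φ x +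
      ((⟪b i, ξ⟫ : ℝ) : ℂ) * D (b j) φ x) + D (b i) (D (b j) φ) x)) =
      ex ξ x * (kap ^ 2 * φ x) * (c i j x * (((⟪b i, ξ⟫ : ℝ) : ℂ) * ((⟪b j, ξ⟫ : ℝ) : ℂ))) +
      ex ξ x * kap * (c i j x * (((⟪b j, ξ⟫ : ℝ) : ℂ) * D (b i) φ x +
        ((⟪b i, ξ⟫ : ℝ) : ℂ) * D (b j) φ x)) +
      ex ξ x * (c i j x * D (b i) (D (b j) φ) x) := fun i j => by ring
  have e2 : ∀ i, d i x * (ex ξ x * (kap * ((⟪b i, ξ⟫ : ℝ) : ℂ) * φ x + D (b i) φ x)) =
      ex ξ x * kap * (d i x * (((⟪b i, ξ⟫ : ℝ) : ℂ) * φ x)) +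
      ex ξ x * (d i x * D (b i) φ x) := fun i => by ring
  simp only [e1, e2, Finset.sum_add_distrib, ← Finset.mul_sum]
  ring

section system

variable {O K : Set E} {L : ℕ} {J : Type*} [Fintype J] {m : ℕ}

/-- symbol matrix: `σ_{pq} = ∑ c_{pqij} ⟨b_i, ξ⟩⟨b_j, ξ⟩` -/
def sig (b : J → E) (c : Fin m → Fin m → J → J → T → E → ℂ) (t : T) (x ξ : E) :
    Matrix (Fin m) (Fin m) ℂ :=
  Matrix.of fun p q => ∑ i, ∑ j, c p q i j t x * (((⟪b i, ξ⟫ : ℝ) : ℂ) * ((⟪b j, ξ⟫ : ℝ) : ℂ))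

theorem pol_sig {b : J → E} {c : Fin m → Fin m → J → J → T → E → ℂ}
    (hc : ∀ p q i j, Cf O K L (c p q i j)) (p q : Fin m) :
    Pol O K 2 L (fun t x ξ => sig b c t x ξ p q) := by
  unfold sig
  simp only [Matrix.of_apply]
  refine Pol.sum _ fun i _ => Pol.sum _ fun j _ => ?_
  exact (Pol.coef (hc p q i j)).mul ((Pol.xi L (b i)).mul (Pol.xi L (b j)))

/-- determinants of matrices of polynomial symbols -/
theorem pol_det {M : T → E → E → Matrix (Fin m) (Fin m) ℂ} (dr : Fin m → ℕ)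
    (h : ∀ p q, Pol O K (dr p) L (fun t x ξ => M t x ξ p q)) :
    Pol O K (∑ p, dr p) L (fun t x ξ => (M t x ξ).det) := by
  have : (fun t x ξ => (M t x ξ).det) = fun t x ξ => ∑ s : Equiv.Perm (Fin m),
      ((s.sign : ℤ) : ℂ) * ∏ i, M t x ξ i (s⁻¹ i) := by
    funext t x ξ
    rw [Matrix.det_apply']
    refine Finset.sum_congr rfl fun s _ => ?_
    rw [← Equiv.prod_comp s (fun i => M t x ξ i (s⁻¹ i))]
    simp
  rw [this]
  refine Pol.sum _ fun s _ => ?_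
  have h1 := (Pol.const 0 L ((s.sign : ℤ) : ℂ)).mul
    (Pol.prod Finset.univ dr fun i _ => h i (s⁻¹ i))
  simpa using h1

theorem pol_det_sig {b : J → E} {c : Fin m → Fin m → J → J → T → E → ℂ}
    (hc : ∀ p q i j, Cf O K L (c p q i j)) :
    Pol O K (2 * m) L (fun t x ξ => (sig b c t x ξ).det) := by
  have := pol_det (M := sig b c) (fun _ => 2) (fun p q => pol_sig hc p q)
  simpa [mul_comm] using this

theorem pol_adj_sig {b : J → E} {c : Fin m → Fin m → J → J → T → E → ℂ}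
    (hc : ∀ p q i j, Cf O K L (c p q i j)) (p q : Fin m) :
    Pol O K (2 * m - 2) L (fun t x ξ => (sig b c t x ξ).adjugate p q) := by
  simp only [Matrix.adjugate_apply]
  have := pol_det (M := fun t x ξ => (sig b c t x ξ).updateRow q (Pi.single p 1))
    (fun i => if i = q then 0 else 2) (O := O) (K := K) (L := L) (fun i j => ?_)
  · refine this.mono (le_of_eq ?_) le_rfl
    have h1 : ∀ i : Fin m, (if i = q then 0 else 2) = 2 - (if i = q then 2 else 0) := fun i => by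
      split_ifs <;> rfl
    have h2 : ∑ i : Fin m, (if i = q then 0 else 2) + ∑ i : Fin m, (if i = q then 2 else 0) =
        2 * m := by
      rw [← Finset.sum_add_distrib, Finset.sum_congr rfl (fun i _ => show
        (if i = q then 0 else 2) + (if i = q then 2 else 0) = 2 from by split_ifs <;> rfl)]
      simp [mul_comm]
    rw [Finset.sum_ite_eq' Finset.univ q] at h2
    simp only [Finset.mem_univ, if_true] at h2
    omega
  · by_cases hi : i = q
    · subst hi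
      simp only [Matrix.updateRow_self, if_true]
      exact Pol.const 0 L _
    · simp only [hi, if_false]
      have e1 : (fun t x ξ => (sig b c t x ξ).updateRow q (Pi.single p 1) i j) =
          fun t x ξ => sig b c t x ξ i j := by
        funext t x ξ
        rw [Matrix.updateRow_ne hi]
      rw [e1]
      exact pol_sig hc i j

/-- one step: `L (e_ξ Φ) = e_ξ (F - G)` -/
theorem step {b : J → E} {c : Fin m → Fin m → J → J → T → E → ℂ}
    {d : Fin m → Fin m → J → T → E → ℂ} {e : Fin m → Fin m → T → E → ℂ}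
    (hc : ∀ p q i j, Cf O K L (c p q i j)) (hd : ∀ p q i, Cf O K L (d p q i))
    (he : ∀ p q, Cf O K L (e p q))
    (H : Ell O K L (fun t x ξ => (sig b c t x ξ).det) (2 * m)) {r : ℤ} {l : ℕ} (hl : l + 2 ≤ L)
    {F : Fin m → T → E → E → ℂ}
    (hF : ∀ q, Sym O K (fun t x ξ => (sig b c t x ξ).det) (2 * m) r (l + 2) (F q)) :
    ∃ Φ G : Fin m → T → E → E → ℂ,
      (∀ p, Sym O K (fun t x ξ => (sig b c t x ξ).det) (2 * m) (r - 2) (l + 2) (Φ p)) ∧
      (∀ q, Sym O K (fun t x ξ => (sig b c t x ξ).det) (2 * m) (r - 1) l (G q)) ∧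
      ∀ t ξ, ξ ≠ 0 → ∀ q x, ∑ p, Lop b (fun i j => c p q i j t) (fun i => d p q i t) (e p q t)
        (fun x => ex ξ x * Φ p t x ξ) x = ex ξ x * (F q t x ξ - G q t x ξ) := by
  set δ : T → E → E → ℂ := fun t x ξ => (sig b c t x ξ).det with hδ
  have hm : 0 < m := by have := H.pos; omega
  -- the amplitude
  set Φ : Fin m → T → E → E → ℂ := fun p t x ξ =>
    ∑ q, (kap ^ 2)⁻¹ * ((sig b c t x ξ).adjugate q p * (F q t x ξ / δ t x ξ)) with hΦ
  have hΦs : ∀ p, Sym O K δ (2 * m) (r - 2) (l + 2) (Φ p) := fun p => by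
    refine Sym.sum H.pos _ fun q _ => Sym.coef (Cf.const _ _) ?_
    refine (((pol_adj_sig hc q p).mono le_rfl hl).mulSym (hF q).div).mono ?_ le_rfl
    push_cast
    omega
  -- its derivatives
  have hD1 := fun p i => (hΦs p).deriv H (l + 1) (by omega) (by omega) (b i)
  choose Φ1 hΦ1 hD1 using hD1
  have hD2 := fun p j i => (hΦ1 p j).deriv H l (by omega) (by omega) (b i)
  choose Φ2 hΦ2 hD2 using hD2
  set G : Fin m → T → E → E → ℂ := fun q t x ξ => (-1 : ℂ) * ∑ p,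
    (kap * (∑ i, ∑ j, c p q i j t x * (((⟪b j, ξ⟫ : ℝ) : ℂ) * Φ1 p i t x ξ +
        ((⟪b i, ξ⟫ : ℝ) : ℂ) * Φ1 p j t x ξ) +
        ∑ i, d p q i t x * (((⟪b i, ξ⟫ : ℝ) : ℂ) * Φ p t x ξ)) +
      (∑ i, ∑ j, c p q i j t x * Φ2 p j i t x ξ + ∑ i, d p q i t x * Φ1 p i t x ξ +
        e p q t x * Φ p t x ξ)) with hG
  refine ⟨Φ, G, hΦs, fun q => ?_, fun t ξ hξ q x => ?_⟩
  · refine Sym.coef (Cf.const _ _) (Sym.sum H.pos _ fun p _ => ?_)
    have hc' : ∀ i j, Cf O K l (c p q i j) := fun i j => (hc p q i j).mono (by omega)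
    have hd' : ∀ i, Cf O K l (d p q i) := fun i => (hd p q i).mono (by omega)
    have he' : Cf O K l (e p q) := (he p q).mono (by omega)
    have h0 : Sym O K δ (2 * m) (r - 2) l (Φ p) := (hΦs p).mono le_rfl (by omega)
    have h1 : ∀ i, Sym O K δ (2 * m) (r - 2) l (Φ1 p i) := fun i =>
      (hΦ1 p i).mono le_rfl (by omega)
    refine Sym.add (Sym.coef (Cf.const _ _) (Sym.add ?_ ?_)) (Sym.add (Sym.add ?_ ?_) ?_)
    · refine Sym.sum H.pos _ fun i _ => Sym.sum H.pos _ fun j _ => Sym.coef (hc' i j) ?_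
      exact (((h1 i).xi (b j)).add ((h1 j).xi (b i))).mono (by omega) le_rfl
    · exact Sym.sum H.pos _ fun i _ => Sym.coef (hd' i) ((h0.xi (b i)).mono (by omega) le_rfl)
    · exact Sym.sum H.pos _ fun i _ => Sym.sum H.pos _ fun j _ =>
        Sym.coef (hc' i j) ((hΦ2 p j i).mono (by omega) le_rfl)
    · exact Sym.sum H.pos _ fun i _ => Sym.coef (hd' i) ((h1 i).mono (by omega) le_rfl)
    · exact Sym.coef he' (h0.mono (by omega) le_rfl)
  · have hs : ∀ p, ContDiff ℝ ∞ (fun x => Φ p t x ξ) := fun p => (hΦs p).smooth H t ξ hξ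
    simp only [Lop_ex_mul b _ _ _ (hs _) ξ x]
    rw [← Finset.mul_sum]
    congr 1
    rw [Finset.sum_add_distrib]
    have key : ∑ p, kap ^ 2 * ((∑ i, ∑ j, c p q i j t x *
        (((⟪b i, ξ⟫ : ℝ) : ℂ) * ((⟪b j, ξ⟫ : ℝ) : ℂ))) * Φ p t x ξ) = F q t x ξ := by
      by_cases hx : x ∈ K
      · have hne : δ t x ξ ≠ 0 := H.ne t x (H.sub hx) ξ hξ
        have e1 : ∀ p, kap ^ 2 * ((∑ i, ∑ j, c p q i j t x *
            (((⟪b i, ξ⟫ : ℝ) : ℂ) * ((⟪b j, ξ⟫ : ℝ) : ℂ))) * Φ p t x ξ) =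
            ∑ q', (sig b c t x ξ).adjugate q' p * (sig b c t x ξ) p q *
              (F q' t x ξ / δ t x ξ) := fun p => by
          simp only [hΦ, Finset.mul_sum]
          refine Finset.sum_congr rfl fun q' _ => ?_
          rw [show (∑ i, ∑ j, c p q i j t x * (((⟪b i, ξ⟫ : ℝ) : ℂ) * ((⟪b j, ξ⟫ : ℝ) : ℂ))) =
            sig b c t x ξ p q from rfl]
          field_simp [kap_ne]
        simp only [e1]
        rw [Finset.sum_comm]
        have e2 : ∀ q', ∑ p, (sig b c t x ξ).adjugate q' p * (sig b c t x ξ) p q *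
            (F q' t x ξ / δ t x ξ) = (if q' = q then δ t x ξ else 0) * (F q' t x ξ / δ t x ξ) := by
          intro q'
          rw [← Finset.sum_mul]
          congr 1
          have := congrFun (congrFun (Matrix.adjugate_mul (sig b c t x ξ)) q') q
          rw [Matrix.mul_apply] at this
          rw [this, Matrix.smul_apply, Matrix.one_apply]
          simp [hδ]
        simp only [e2, ite_mul, zero_mul]
        rw [Finset.sum_ite_eq' Finset.univ q]
        simp only [Finset.mem_univ, if_true]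
        field_simp
      · simp [(hΦs _).off t x hx ξ, (hF q).off t x hx ξ]
    rw [key, sub_eq_add_neg]
    congr 1
    simp only [hG, neg_mul, one_mul, neg_neg]
    refine Finset.sum_congr rfl fun p _ => ?_
    unfold Lop
    have f1 : ∀ i, D (b i) (fun x => Φ p t x ξ) = fun x => Φ1 p i t x ξ := fun i => by
      funext y; exact hD1 p i t ξ hξ y
    simp only [f1, hD2 p _ _ t ξ hξ x]


end system

end Vale.Agent.P088.R2.H464
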