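import Mathlib

/-!
# Hypoellipticity of second order elliptic systems: amplitudes

For a system `(L φ)_q = ∑_p (∑ c_{pqij} ∂_i ∂_j φ_p + ∑ d_{pqi} ∂_i φ_p + e_{pq} φ_p)` with smooth
complex coefficients, elliptic on an open set `O`, and a smooth `χ` with support in a compact
`K ⊆ O`, we construct amplitudes `Φ(x, ξ)`, supported in `K`, with
`L (e_ξ Φ) = e_ξ (χ - G)`, `e_ξ(x) = exp (-2πi⟨x, ξ⟩)`, `G = O(|ξ|^{-N})`.
All is done for families of operators, indexed by an arbitrary type `T`, with uniform bounds.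

This file: the classes of symbols and their derivatives.
-/

open Set Filter Topology
open scoped ContDiff RealInnerProductSpace

noncomputable section

namespace Vale.Agent.P088.R2.H464

universe u v

variable {E : Type u} [NormedAddCommGroup E] [InnerProductSpace ℝ E]
variable {T : Type v}

/-- directional derivative -/
def D (v : E) (φ : E → ℂ) (x : E) : ℂ := fderiv ℝ φ x v

/-- smooth on `O`, uniformly bounded on `K` -/
structure Cf0 (O K : Set E) (a : T → E → ℂ) : Prop where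
  smooth : ∀ t, ContDiffOn ℝ ∞ (a t) O
  bound : ∃ C : ℝ, ∀ t, ∀ x ∈ K, ‖a t x‖ ≤ C

/-- uniform bounds on `K` for the derivatives up to order `l`, smooth on `O` -/
inductive Cf (O K : Set E) : ℕ → (T → E → ℂ) → Prop
  | zero {a : T → E → ℂ} : Cf0 O K a → Cf O K 0 a
  | succ {l : ℕ} {a : T → E → ℂ} : Cf0 O K a → (∀ v : E, Cf O K l (fun t x => D v (a t) x)) →
      Cf O K (l + 1) a

theorem Cf.base {O K : Set E} {l : ℕ} {a : T → E → ℂ} (h : Cf O K l a) : Cf0 O K a := by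
  cases h with
  | zero h => exact h
  | succ h _ => exact h

theorem Cf.deriv {O K : Set E} {l : ℕ} {a : T → E → ℂ} (h : Cf O K (l + 1) a) (v : E) :
    Cf O K l (fun t x => D v (a t) x) := by
  cases h with
  | succ _ h => exact h v

theorem Cf.mono {O K : Set E} {l l' : ℕ} {a : T → E → ℂ} (h : Cf O K l a) (hl : l' ≤ l) :
    Cf O K l' a := by
  induction l' generalizing l a with
  | zero => exact .zero h.base
  | succ l' ih =>
    obtain ⟨l, rfl⟩ : ∃ k, l = k + 1 := ⟨l - 1, by omega⟩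
    exact .succ h.base fun v => ih (h.deriv v) (by omega)

theorem Cf.const {O K : Set E} (l : ℕ) (c : ℂ) : Cf O K l (fun (_ : T) (_ : E) => c) := by
  have h0 : ∀ c : ℂ, Cf0 O K (fun (_ : T) (_ : E) => c) := fun c =>
    ⟨fun _ => contDiffOn_const, ‖c‖, fun _ _ _ => le_rfl⟩
  induction l generalizing c with
  | zero => exact .zero (h0 c)
  | succ l ih =>
    refine .succ (h0 c) fun v => ?_
    have : (fun (_ : T) (x : E) => D v (fun _ : E => c) x) = fun _ _ => 0 := by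
      funext t x; simp [D]
    rw [this]; exact ih 0

/-! ## Calculus -/

theorem D_add_of_diff {φ ψ : E → ℂ} {x : E} (hφ : DifferentiableAt ℝ φ x)
    (hψ : DifferentiableAt ℝ ψ x) (e : E) :
    D e (fun x => φ x + ψ x) x = D e φ x + D e ψ x := by
  unfold D
  rw [fderiv_fun_add hφ hψ]
  rfl

theorem D_const_mul_of_diff {φ : E → ℂ} {x : E} (hφ : DifferentiableAt ℝ φ x) (c : ℂ) (e : E) :
    D e (fun x => c * φ x) x = c * D e φ x := by
  unfold D
  rw [fderiv_const_mul hφ]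
  rfl

/-- product rule -/
theorem D_mul_of_diff {a φ : E → ℂ} {x : E} (ha : DifferentiableAt ℝ a x)
    (hφ : DifferentiableAt ℝ φ x) (e : E) :
    D e (fun x => a x * φ x) x = D e a x * φ x + a x * D e φ x := by
  unfold D
  rw [fderiv_fun_mul ha hφ]
  simp only [add_apply, smul_apply, smul_eq_mul]
  ring

theorem D_congr_off {K : Set E} {φ : E → ℂ} (hK : IsClosed K) (h0 : ∀ x ∉ K, φ x = 0) {x : E}
    (hx : x ∉ K) (e : E) : D e φ x = 0 := by
  have : φ =ᶠ[𝓝 x] fun _ => 0 := by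
    filter_upwards [hK.isOpen_compl.mem_nhds hx] with y hy using h0 y hy
  unfold D
  rw [this.fderiv_eq]
  simp

/-- a function smooth on the open set `O` and zero off the closed set `K ⊆ O` is smooth -/
theorem contDiff_of_zero_off {O K : Set E} {φ : E → ℂ} (hO : IsOpen O) (hK : IsClosed K)
    (hKO : K ⊆ O) (h : ContDiffOn ℝ ∞ φ O) (h0 : ∀ x ∉ K, φ x = 0) : ContDiff ℝ ∞ φ := by
  rw [contDiff_iff_contDiffAt]
  intro x
  by_cases hx : x ∈ O
  · exact h.contDiffAt (hO.mem_nhds hx)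
  · have hxK : x ∈ Kᶜ := fun h => hx (hKO h)
    have : φ =ᶠ[𝓝 x] fun _ => 0 := by
      filter_upwards [hK.isOpen_compl.mem_nhds hxK] with y hy using h0 y hy
    exact contDiffAt_const.congr_of_eventuallyEq this

/-! ## Polynomial symbols -/

/-- polynomials in `ξ` of degree at most `d`, with `l` bounded derivatives in `x` -/
inductive Pol (O K : Set E) : ℕ → ℕ → (T → E → E → ℂ) → Prop
  | coef {l : ℕ} {a : T → E → ℂ} : Cf O K l a → Pol O K 0 l (fun t x _ => a t x)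
  | xi (l : ℕ) (e : E) : Pol O K 1 l (fun _ _ ξ => ((⟪e, ξ⟫ : ℝ) : ℂ))
  | add {d l : ℕ} {P Q : T → E → E → ℂ} : Pol O K d l P → Pol O K d l Q →
      Pol O K d l (fun t x ξ => P t x ξ + Q t x ξ)
  | mul {d d' l : ℕ} {P Q : T → E → E → ℂ} : Pol O K d l P → Pol O K d' l Q →
      Pol O K (d + d') l (fun t x ξ => P t x ξ * Q t x ξ)
  | mono {d d' l l' : ℕ} {P : T → E → E → ℂ} : d ≤ d' → l' ≤ l → Pol O K d l P →
      Pol O K d' l' P

section
variable {O K : Set E}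

theorem Pol.smoothOn {d l : ℕ} {P : T → E → E → ℂ} (h : Pol O K d l P) :
    ∀ t ξ, ContDiffOn ℝ ∞ (fun x => P t x ξ) O := by
  induction h with
  | coef ha => exact fun t _ => ha.base.smooth t
  | xi l e => exact fun t ξ => contDiffOn_const
  | add _ _ h1 h2 => exact fun t ξ => (h1 t ξ).add (h2 t ξ)
  | mul _ _ h1 h2 => exact fun t ξ => (h1 t ξ).mul (h2 t ξ)
  | mono _ _ _ h1 => exact h1

theorem Pol.const (d l : ℕ) (c : ℂ) : Pol O K d l (fun (_ : T) _ _ => c) :=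
  (Pol.coef (Cf.const l c)).mono (by omega) le_rfl

theorem Pol.sum {α : Type*} (s : Finset α) {d l : ℕ} {F : α → T → E → E → ℂ}
    (h : ∀ k ∈ s, Pol O K d l (F k)) : Pol O K d l (fun t x ξ => ∑ k ∈ s, F k t x ξ) := by
  classical
  induction s using Finset.induction_on with
  | empty => simpa using Pol.const d l 0
  | insert a s ha ih =>
    have := (h a (by simp)).add (ih fun k hk => h k (by simp [hk]))
    simpa [Finset.sum_insert ha] using this

theorem Pol.prod {α : Type*} (s : Finset α) {l : ℕ} (d : α → ℕ) {F : α → T → E → E → ℂ}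
    (h : ∀ k ∈ s, Pol O K (d k) l (F k)) :
    Pol O K (∑ k ∈ s, d k) l (fun t x ξ => ∏ k ∈ s, F k t x ξ) := by
  classical
  induction s using Finset.induction_on with
  | empty => simpa using Pol.const 0 l 1
  | insert a s ha ih =>
    have := (h a (by simp)).mul (ih fun k hk => h k (by simp [hk]))
    simpa [Finset.sum_insert ha, Finset.prod_insert ha] using this

theorem Pol.deriv (hO : IsOpen O) {d l : ℕ} {P : T → E → E → ℂ}
    (h : Pol O K d l P) : ∀ l', l' + 1 ≤ l → ∀ e : E,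
    ∃ Q : T → E → E → ℂ, Pol O K d l' Q ∧ ∀ t ξ, ∀ x ∈ O, D e (fun x => P t x ξ) x = Q t x ξ := by
  induction h with
  | @coef l a ha =>
    intro l' hl' e
    exact ⟨_, .coef ((ha.mono hl').deriv e), fun t ξ x _ => rfl⟩
  | xi l e' =>
    intro l' hl' e
    exact ⟨_, Pol.const 1 l' 0, fun t ξ x _ => by simp [D]⟩
  | @add d l P Q hP hQ h1 h2 =>
    intro l' hl' e
    obtain ⟨P', hP', h1⟩ := h1 l' hl' e
    obtain ⟨Q', hQ', h2⟩ := h2 l' hl' e
    refine ⟨_, hP'.add hQ', fun t ξ x hx => ?_⟩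
    rw [D_add_of_diff (((hP.smoothOn t ξ).contDiffAt (hO.mem_nhds hx)).differentiableAt (by simp))
      (((hQ.smoothOn t ξ).contDiffAt (hO.mem_nhds hx)).differentiableAt (by simp)),
      h1 t ξ x hx, h2 t ξ x hx]
  | @mul d d' l P Q hP hQ h1 h2 =>
    intro l' hl' e
    obtain ⟨P', hP', h1⟩ := h1 l' hl' e
    obtain ⟨Q', hQ', h2⟩ := h2 l' hl' e
    refine ⟨_, (hP'.mul (hQ.mono le_rfl (by omega))).add ((hP.mono le_rfl (by omega)).mul hQ'),
      fun t ξ x hx => ?_⟩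
    rw [D_mul_of_diff (((hP.smoothOn t ξ).contDiffAt (hO.mem_nhds hx)).differentiableAt (by simp))
      (((hQ.smoothOn t ξ).contDiffAt (hO.mem_nhds hx)).differentiableAt (by simp)),
      h1 t ξ x hx, h2 t ξ x hx]
  | @mono d d' l l' P hd hl hP h1 =>
    intro l'' hl'' e
    obtain ⟨Q, hQ, h2⟩ := h1 l'' (by omega) e
    exact ⟨Q, hQ.mono hd le_rfl, h2⟩

end

/-! ## Amplitudes -/

/-- amplitudes of order `m` with `l` bounded derivatives; `δ` is the determinant of the symbol,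
of order `d` -/
inductive Sym (O K : Set E) (δ : T → E → E → ℂ) (d : ℕ) :
    ℤ → ℕ → (T → E → E → ℂ) → Prop
  | base {l : ℕ} {b : T → E → ℂ} : Cf O K l b → (∀ t, ∀ x ∉ K, b t x = 0) →
      Sym O K δ d 0 l (fun t x _ => b t x)
  | add {m : ℤ} {l : ℕ} {F G : T → E → E → ℂ} : Sym O K δ d m l F → Sym O K δ d m l G →
      Sym O K δ d m l (fun t x ξ => F t x ξ + G t x ξ)
  | coef {m : ℤ} {l : ℕ} {a : T → E → ℂ} {F : T → E → E → ℂ} : Cf O K l a →
      Sym O K δ d m l F → Sym O K δ d m l (fun t x ξ => a t x * F t x ξ)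
  | xi {m : ℤ} {l : ℕ} {F : T → E → E → ℂ} (e : E) : Sym O K δ d m l F →
      Sym O K δ d (m + 1) l (fun t x ξ => ((⟪e, ξ⟫ : ℝ) : ℂ) * F t x ξ)
  | div {m : ℤ} {l : ℕ} {F : T → E → E → ℂ} : Sym O K δ d m l F →
      Sym O K δ d (m - d) l (fun t x ξ => F t x ξ / δ t x ξ)
  | mono {m m' : ℤ} {l l' : ℕ} {F : T → E → E → ℂ} : m ≤ m' → l' ≤ l →
      Sym O K δ d m l F → Sym O K δ d m' l' F

/-- standing assumptions -/
structure Ell (O K : Set E) (L : ℕ) (δ : T → E → E → ℂ) (d : ℕ) : Prop where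
  isOpen : IsOpen O
  isCompact : IsCompact K
  sub : K ⊆ O
  pol : Pol O K d L δ
  pos : 0 < d
  ne : ∀ t, ∀ x ∈ O, ∀ ξ, ξ ≠ 0 → δ t x ξ ≠ 0
  ell : ∃ lam : ℝ, 0 < lam ∧ ∀ t, ∀ x ∈ K, ∀ ξ, lam * ‖ξ‖ ^ d ≤ ‖δ t x ξ‖

section
variable {O K : Set E} {L d : ℕ} {δ : T → E → E → ℂ}

theorem Sym.off {m : ℤ} {l : ℕ} {F : T → E → E → ℂ}
    (h : Sym O K δ d m l F) : ∀ t, ∀ x ∉ K, ∀ ξ, F t x ξ = 0 := by
  induction h with
  | base _ h0 => exact fun t x hx _ => h0 t x hx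
  | add _ _ h1 h2 => intro t x hx ξ; simp [h1 t x hx ξ, h2 t x hx ξ]
  | coef _ _ h1 => intro t x hx ξ; simp [h1 t x hx ξ]
  | xi e _ h1 => intro t x hx ξ; simp [h1 t x hx ξ]
  | div _ h1 => intro t x hx ξ; simp [h1 t x hx ξ]
  | mono _ _ _ h1 => exact h1

theorem Sym.smoothOn (H : Ell O K L δ d) {m : ℤ} {l : ℕ} {F : T → E → E → ℂ}
    (h : Sym O K δ d m l F) : ∀ t, ∀ ξ, ξ ≠ 0 → ContDiffOn ℝ ∞ (fun x => F t x ξ) O := by
  induction h with
  | base hb _ => exact fun t ξ _ => hb.base.smooth t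
  | add _ _ h1 h2 => exact fun t ξ hξ => (h1 t ξ hξ).add (h2 t ξ hξ)
  | coef ha _ h1 => exact fun t ξ hξ => (ha.base.smooth t).mul (h1 t ξ hξ)
  | xi e _ h1 => exact fun t ξ hξ => contDiffOn_const.mul (h1 t ξ hξ)
  | div _ h1 =>
    intro t ξ hξ
    have := (h1 t ξ hξ).mul ((H.pol.smoothOn t ξ).inv (fun x hx => H.ne t x hx ξ hξ))
    simp only [div_eq_mul_inv]
    exact this
  | mono _ _ _ h1 => exact h1

theorem Sym.smooth (H : Ell O K L δ d) {m : ℤ} {l : ℕ} {F : T → E → E → ℂ}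
    (h : Sym O K δ d m l F) (t : T) (ξ : E) (hξ : ξ ≠ 0) : ContDiff ℝ ∞ (fun x => F t x ξ) :=
  contDiff_of_zero_off H.isOpen H.isCompact.isClosed H.sub (h.smoothOn H t ξ hξ)
    (fun x hx => h.off t x hx ξ)

theorem Sym.diff (H : Ell O K L δ d) {m : ℤ} {l : ℕ} {F : T → E → E → ℂ}
    (h : Sym O K δ d m l F) (t : T) (ξ : E) (hξ : ξ ≠ 0) (x : E) :
    DifferentiableAt ℝ (fun x => F t x ξ) x :=
  (h.smooth H t ξ hξ).differentiable (by simp) x

theorem Sym.bound (H : Ell O K L δ d) {m : ℤ} {l : ℕ} {F : T → E → E → ℂ}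
    (h : Sym O K δ d m l F) :
    ∃ C : ℝ, 0 ≤ C ∧ ∀ t x ξ, 1 ≤ ‖ξ‖ → ‖F t x ξ‖ ≤ C * ‖ξ‖ ^ m := by
  induction h with
  | @base l b hb h0 =>
    obtain ⟨C, hC⟩ := hb.base.bound
    refine ⟨max C 0, le_max_right _ _, fun t x ξ _ => ?_⟩
    by_cases hx : x ∈ K
    · simpa using (Or.inl (hC t x hx) : ‖b t x‖ ≤ C ∨ ‖b t x‖ ≤ 0)
    · simp [h0 t x hx]
  | @add m l F G _ _ h1 h2 =>
    obtain ⟨C1, hC1, h1⟩ := h1
    obtain ⟨C2, hC2, h2⟩ := h2
    refine ⟨C1 + C2, by positivity, fun t x ξ hξ => ?_⟩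
    calc ‖F t x ξ + G t x ξ‖ ≤ ‖F t x ξ‖ + ‖G t x ξ‖ := norm_add_le _ _
      _ ≤ C1 * ‖ξ‖ ^ m + C2 * ‖ξ‖ ^ m := add_le_add (h1 t x ξ hξ) (h2 t x ξ hξ)
      _ = (C1 + C2) * ‖ξ‖ ^ m := by ring
  | @coef m l a F ha hF h1 =>
    obtain ⟨C1, hC1, h1⟩ := h1
    obtain ⟨C, hC⟩ := ha.base.bound
    refine ⟨|C| * C1, by positivity, fun t x ξ hξ => ?_⟩
    by_cases hx : x ∈ K
    · rw [norm_mul]
      calc ‖a t x‖ * ‖F t x ξ‖ ≤ |C| * (C1 * ‖ξ‖ ^ m) :=
            mul_le_mul ((hC t x hx).trans (le_abs_self C)) (h1 t x ξ hξ) (norm_nonneg _)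
              (abs_nonneg _)
        _ = |C| * C1 * ‖ξ‖ ^ m := by ring
    · simp only [hF.off t x hx ξ, mul_zero, norm_zero]
      positivity
  | @xi m l F e hF h1 =>
    obtain ⟨C1, hC1, h1⟩ := h1
    refine ⟨‖e‖ * C1, by positivity, fun t x ξ hξ => ?_⟩
    have hξ0 : ‖ξ‖ ≠ 0 := by positivity
    rw [norm_mul, zpow_add_one₀ hξ0]
    have h2 : ‖((⟪e, ξ⟫ : ℝ) : ℂ)‖ ≤ ‖e‖ * ‖ξ‖ := by
      rw [Complex.norm_real]; exact abs_real_inner_le_norm e ξ
    calc ‖((⟪e, ξ⟫ : ℝ) : ℂ)‖ * ‖F t x ξ‖ ≤ (‖e‖ * ‖ξ‖) * (C1 * ‖ξ‖ ^ m) :=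
          mul_le_mul h2 (h1 t x ξ hξ) (norm_nonneg _) (by positivity)
      _ = ‖e‖ * C1 * (‖ξ‖ ^ m * ‖ξ‖) := by ring
  | @div m l F hF h1 =>
    obtain ⟨C1, hC1, h1⟩ := h1
    obtain ⟨lam, hlam, hp⟩ := H.ell
    refine ⟨C1 / lam, by positivity, fun t x ξ hξ => ?_⟩
    have hξ0 : 0 < ‖ξ‖ := by positivity
    by_cases hx : x ∈ K
    · rw [norm_div]
      have h2 := hp t x hx ξ
      have h3 : 0 < lam * ‖ξ‖ ^ d := by positivity
      calc ‖F t x ξ‖ / ‖δ t x ξ‖ ≤ (C1 * ‖ξ‖ ^ m) / (lam * ‖ξ‖ ^ d) :=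
            div_le_div₀ (by positivity) (h1 t x ξ hξ) h3 h2
        _ = C1 / lam * ‖ξ‖ ^ (m - d) := by
            rw [zpow_sub₀ hξ0.ne', zpow_natCast]
            field_simp
    · simp only [hF.off t x hx ξ, zero_div, norm_zero]
      positivity
  | @mono m m' l l' F hm hl hF h1 =>
    obtain ⟨C1, hC1, h1⟩ := h1
    refine ⟨C1, hC1, fun t x ξ hξ => (h1 t x ξ hξ).trans ?_⟩
    exact mul_le_mul_of_nonneg_left (zpow_le_zpow_right₀ hξ hm) hC1

theorem Sym.zero' (l : ℕ) : Sym O K δ d 0 l (fun _ _ _ => (0 : ℂ)) :=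
  .base (Cf.const l 0) (fun _ _ _ => rfl)

theorem Sym.zero (hd : 0 < d) (m : ℤ) (l : ℕ) : Sym O K δ d m l (fun _ _ _ => (0 : ℂ)) := by
  -- order arbitrary: divide by `δ` often enough
  have h : ∀ k : ℕ, Sym O K δ d (-(d : ℤ) * k) l (fun _ _ _ => (0 : ℂ)) := by
    intro k
    induction k with
    | zero => simpa using Sym.zero' (O := O) (K := K) (δ := δ) (d := d) l
    | succ k ih =>
      have := ih.div
      simp only [zero_div] at this
      convert this using 1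
      push_cast; ring
  refine (h m.natAbs).mono ?_ le_rfl
  have h1 : (1 : ℤ) ≤ d := by omega
  have h2 : (0 : ℤ) ≤ m.natAbs := by omega
  nlinarith [neg_abs_le m, Int.natCast_natAbs m]

theorem Sym.sum (hd : 0 < d) {α : Type*} (s : Finset α) {m : ℤ} {l : ℕ} {F : α → T → E → E → ℂ}
    (h : ∀ k ∈ s, Sym O K δ d m l (F k)) :
    Sym O K δ d m l (fun t x ξ => ∑ k ∈ s, F k t x ξ) := by
  classical
  induction s using Finset.induction_on with
  | empty => simpa using Sym.zero hd m l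
  | insert a s ha ih =>
    have := (h a (by simp)).add (ih fun k hk => h k (by simp [hk]))
    simpa [Finset.sum_insert ha] using this

/-- multiplication with a polynomial symbol -/
theorem Pol.mulSym {d' l : ℕ} {P : T → E → E → ℂ} (h : Pol O K d' l P) :
    ∀ {m : ℤ} {F : T → E → E → ℂ}, Sym O K δ d m l F →
      Sym O K δ d (m + d') l (fun t x ξ => P t x ξ * F t x ξ) := by
  suffices H : ∀ l', l' ≤ l → ∀ {m : ℤ} {F : T → E → E → ℂ}, Sym O K δ d m l' F →
      Sym O K δ d (m + d') l' (fun t x ξ => P t x ξ * F t x ξ) from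
    @fun m F hF => H l le_rfl hF
  induction h with
  | coef ha =>
    intro l' hl' m F hF
    simpa using hF.coef (ha.mono hl')
  | xi l e =>
    intro l' hl' m F hF
    exact hF.xi e
  | @add d l P Q hP hQ h1 h2 =>
    intro l' hl' m F hF
    have := (h1 l' hl' hF).add (h2 l' hl' hF)
    simpa only [add_mul] using this
  | @mul d d' l P Q hP hQ h1 h2 =>
    intro l' hl' m F hF
    have := h1 l' hl' (h2 l' hl' hF)
    simp only [mul_assoc]
    refine this.mono ?_ le_rfl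
    push_cast; omega
  | @mono d d' l l' P hd hl hP h1 =>
    intro l'' hl'' m F hF
    exact (h1 l'' (by omega) hF).mono (by omega) le_rfl

theorem Sym.deriv (H : Ell O K L δ d) {m : ℤ} {l : ℕ} {F : T → E → E → ℂ}
    (h : Sym O K δ d m l F) : ∀ l', l' + 1 ≤ l → l' + 1 ≤ L → ∀ e : E,
    ∃ G : T → E → E → ℂ, Sym O K δ d m l' G ∧
      ∀ t ξ, ξ ≠ 0 → ∀ x, D e (fun x => F t x ξ) x = G t x ξ := by
  induction h with
  | @base l b hb h0 =>
    intro l' hl' _ e
    refine ⟨_, .base ((hb.mono hl').deriv e) (fun t x hx => ?_), fun t ξ _ x => rfl⟩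
    exact D_congr_off H.isCompact.isClosed (h0 t) hx e
  | @add m l F G hF hG h1 h2 =>
    intro l' hl' hL e
    obtain ⟨F', hF', h1⟩ := h1 l' hl' hL e
    obtain ⟨G', hG', h2⟩ := h2 l' hl' hL e
    refine ⟨_, hF'.add hG', fun t ξ hξ x => ?_⟩
    rw [D_add_of_diff (hF.diff H t ξ hξ x) (hG.diff H t ξ hξ x), h1 t ξ hξ x, h2 t ξ hξ x]
  | @coef m l a F ha hF h1 =>
    intro l' hl' hL e
    obtain ⟨F', hF', h1⟩ := h1 l' hl' hL e
    refine ⟨_, (((hF.mono le_rfl (by omega)).coef ((ha.mono hl').deriv e)).add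
      (hF'.coef (ha.mono (by omega)))), fun t ξ hξ x => ?_⟩
    by_cases hx : x ∈ K
    · have hxO : O ∈ 𝓝 x := H.isOpen.mem_nhds (H.sub hx)
      rw [D_mul_of_diff (((ha.base.smooth t).contDiffAt hxO).differentiableAt (by simp))
        (hF.diff H t ξ hξ x), h1 t ξ hξ x]
    · rw [D_congr_off H.isCompact.isClosed
        (fun y hy => by simp [hF.off t y hy ξ]) hx e, hF.off t x hx ξ, hF'.off t x hx ξ]
      simp
  | @xi m l F e' hF h1 =>
    intro l' hl' hL e
    obtain ⟨F', hF', h1⟩ := h1 l' hl' hL e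
    refine ⟨_, hF'.xi e', fun t ξ hξ x => ?_⟩
    rw [D_const_mul_of_diff (hF.diff H t ξ hξ x), h1 t ξ hξ x]
  | @div m l F hF h1 =>
    intro l' hl' hL e
    obtain ⟨F', hF', h1⟩ := h1 l' hl' hL e
    obtain ⟨δ', hδ', h2⟩ := H.pol.deriv H.isOpen l' hL e
    refine ⟨fun t x ξ => F' t x ξ / δ t x ξ +
      (-1 : ℂ) * (δ' t x ξ * (F t x ξ / δ t x ξ / δ t x ξ)), ?_, fun t ξ hξ x => ?_⟩
    · refine hF'.div.add (Sym.coef (Cf.const l' (-1)) ?_)
      exact (hδ'.mulSym (((hF.mono le_rfl (show l' ≤ l by omega)).div).div)).mono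
        (by omega) le_rfl
    · by_cases hx : x ∈ K
      · have hxO : O ∈ 𝓝 x := H.isOpen.mem_nhds (H.sub hx)
        have hF1 : DifferentiableAt ℝ (fun x => F t x ξ) x := hF.diff H t ξ hξ x
        have hp0 : δ t x ξ ≠ 0 := H.ne t x (H.sub hx) ξ hξ
        have hpd : DifferentiableAt ℝ (fun x => δ t x ξ) x :=
          ((H.pol.smoothOn t ξ).contDiffAt hxO).differentiableAt (by simp)
        have hinv : D e (fun x => (δ t x ξ)⁻¹) x = -(δ' t x ξ) / (δ t x ξ) ^ 2 := by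
          have h4 := D_mul_of_diff hpd (hpd.inv hp0) e
          have h5 : D e (fun x => δ t x ξ * (δ t x ξ)⁻¹) x = 0 := by
            have : (fun x => δ t x ξ * (δ t x ξ)⁻¹) =ᶠ[𝓝 x] fun _ => 1 := by
              filter_upwards [hxO] with y hy using mul_inv_cancel₀ (H.ne t y hy ξ hξ)
            unfold D
            rw [this.fderiv_eq]
            simp
          rw [show (fun x => δ t x ξ)⁻¹ = (fun x => (δ t x ξ)⁻¹) from rfl] at h4
          rw [h5, h2 t ξ x (H.sub hx)] at h4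
          field_simp
          field_simp at h4
          linear_combination -h4
        have h3 : D e (fun x => F t x ξ / δ t x ξ) x =
            D e (fun x => F t x ξ) x * (δ t x ξ)⁻¹ +
              F t x ξ * D e (fun x => (δ t x ξ)⁻¹) x := by
          simp only [div_eq_mul_inv]
          exact D_mul_of_diff hF1 (hpd.inv hp0) e
        rw [h3, hinv, h1 t ξ hξ x]
        simp only
        field_simp
      · rw [D_congr_off H.isCompact.isClosed
          (fun y hy => by simp [hF.off t y hy ξ]) hx e]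
        simp [hF.off t x hx ξ, hF'.off t x hx ξ]
  | @mono m m' l l' F hm hl hF h1 =>
    intro l'' hl'' hL e
    obtain ⟨G, hG, h2⟩ := h1 l'' (by omega) hL e
    exact ⟨G, hG.mono hm le_rfl, h2⟩

end

end Vale.Agent.P088.R2.H464
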