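import Vale.Agent.P088.R2.H464.Decay2

/-!
# Hypoellipticity of second order elliptic systems: one operator
-/

open Set Filter Topology MeasureTheory
open scoped ContDiff RealInnerProductSpace FourierTransform

noncomputable section

namespace Vale.Agent.P088.R2.H464

universe u v

variable {E : Type u} [NormedAddCommGroup E] [InnerProductSpace ℝ E]
variable {T : Type v}

/-- a single function smooth on `O` has bounded derivatives of all orders on compact subsets -/
theorem cf_of_smooth {O K : Set E} (hO : IsOpen O) (hK : IsCompact K) (hKO : K ⊆ O) (l : ℕ)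
    {a : E → ℂ} (ha : ContDiffOn ℝ ∞ a O) : Cf O K l (fun _ : T => a) := by
  have h0 : ∀ {a : E → ℂ}, ContDiffOn ℝ ∞ a O → Cf0 O K (fun _ : T => a) := fun {a} ha => by
    obtain ⟨C, hC⟩ := hK.exists_bound_of_continuousOn (ha.continuousOn.mono hKO)
    exact ⟨fun _ => ha, C, fun _ x hx => hC x hx⟩
  induction l generalizing a with
  | zero => exact .zero (h0 ha)
  | succ l ih =>
    refine .succ (h0 ha) fun v => ih ?_
    unfold D
    have h1 : ContDiffOn ℝ ∞ (fderiv ℝ a) O := ha.fderiv_of_isOpen hO (by simp)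
    exact h1.clm_apply contDiffOn_const

variable {J : Type*} [Fintype J] {m : ℕ}

theorem sig_smul (b : J → E) (c : Fin m → Fin m → J → J → T → E → ℂ) (t : T) (x ξ : E) (r : ℝ) :
    (sig b c t x (r • ξ)).det = ((r : ℂ) ^ 2) ^ m * (sig b c t x ξ).det := by
  have : sig b c t x (r • ξ) = ((r : ℂ) ^ 2) • sig b c t x ξ := by
    ext p q
    simp only [sig, Matrix.of_apply, Matrix.smul_apply, smul_eq_mul, Finset.mul_sum,
      inner_smul_right]
    refine Finset.sum_congr rfl fun i _ => Finset.sum_congr rfl fun j _ => ?_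
    push_cast
    ring
  rw [this, Matrix.det_smul, Fintype.card_fin]

variable [FiniteDimensional ℝ E]

/-- the lower bound of the determinant on a compact set -/
theorem ell_of_ne {O K : Set E} (hK : IsCompact K) (hKO : K ⊆ O)
    {b : J → E} {c : Fin m → Fin m → J → J → E → ℂ} (hc : ∀ p q i j, ContDiffOn ℝ ∞ (c p q i j) O)
    (hne : ∀ x ∈ O, ∀ ξ, ξ ≠ 0 → (sig b (fun p q i j (_ : Unit) => c p q i j) () x ξ).det ≠ 0) :
    ∃ lam : ℝ, 0 < lam ∧ ∀ t : Unit, ∀ x ∈ K, ∀ ξ, lam * ‖ξ‖ ^ (2 * m) ≤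
      ‖(sig b (fun p q i j (_ : Unit) => c p q i j) t x ξ).det‖ := by
  set cc : Fin m → Fin m → J → J → Unit → E → ℂ := fun p q i j _ => c p q i j with hcc
  set S : Set E := Metric.sphere 0 1 with hS
  have hScomp : IsCompact S := isCompact_sphere 0 1
  have hcont : ContinuousOn (fun z : E × E => ‖(sig b cc () z.1 z.2).det‖) (K ×ˢ S) := by
    refine ContinuousOn.norm ?_
    have h1 : ContinuousOn (fun z : E × E => sig b cc () z.1 z.2) (K ×ˢ S) := by
      refine continuousOn_pi.2 fun p => continuousOn_pi.2 fun q => ?_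
      simp only [sig, Matrix.of_apply]
      refine continuousOn_finsetSum _ fun i _ => continuousOn_finsetSum _ fun j _ => ?_
      refine ContinuousOn.mul ?_ ?_
      · exact ((hc p q i j).continuousOn.mono hKO).comp continuousOn_fst fun z hz => hz.1
      · refine ContinuousOn.mul ?_ ?_ <;>
        exact (Complex.continuous_ofReal.comp (continuous_const.inner continuous_snd)).continuousOn
    exact (Continuous.matrix_det continuous_id).comp_continuousOn h1
  by_cases hne' : (K ×ˢ S).Nonempty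
  · obtain ⟨z, hz, hmin⟩ := (hK.prod hScomp).exists_isMinOn hne' hcont
    have hz2 : z.2 ≠ 0 := by
      intro h0
      have := hz.2
      rw [hS, h0] at this
      simp at this
    have hpos : 0 < ‖(sig b cc () z.1 z.2).det‖ := norm_pos_iff.2 (hne z.1 (hKO hz.1) z.2 hz2)
    refine ⟨_, hpos, fun t x hx ξ => ?_⟩
    by_cases hξ : ξ = 0
    · subst hξ
      by_cases hm : m = 0
      · subst hm
        simp
      · simp [hm]
    · have hn : 0 < ‖ξ‖ := norm_pos_iff.2 hξ
      have hu : (‖ξ‖⁻¹ • ξ) ∈ S := by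
        rw [hS, mem_sphere_zero_iff_norm, norm_smul, norm_inv, norm_norm, inv_mul_cancel₀ hn.ne']
      have h2 := hmin (show (x, ‖ξ‖⁻¹ • ξ) ∈ K ×ˢ S from ⟨hx, hu⟩)
      simp only [mem_ofPred_eq] at h2
      have h3 : ξ = ‖ξ‖ • (‖ξ‖⁻¹ • ξ) := by rw [smul_smul, mul_inv_cancel₀ hn.ne', one_smul]
      rw [h3, sig_smul, norm_mul, ← h3]
      have h4 : ‖(((‖ξ‖ : ℝ) : ℂ) ^ 2) ^ m‖ = ‖ξ‖ ^ (2 * m) := by
        rw [norm_pow, norm_pow, Complex.norm_real, norm_norm, ← pow_mul]
      rw [h4, mul_comm]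
      exact mul_le_mul_of_nonneg_left h2 (by positivity)
  · refine ⟨1, one_pos, fun t x hx ξ => ?_⟩
    have hS0 : S = ∅ := by
      by_contra h
      obtain ⟨s, hs⟩ := nonempty_iff_ne_empty.2 h
      exact hne' ⟨(x, s), hx, hs⟩
    have hξ : ξ = 0 := by
      by_contra hξ
      have hn : 0 < ‖ξ‖ := norm_pos_iff.2 hξ
      have hu : (‖ξ‖⁻¹ • ξ) ∈ S := by
        rw [hS, mem_sphere_zero_iff_norm, norm_smul, norm_inv, norm_norm, inv_mul_cancel₀ hn.ne']
      rw [hS0] at hu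
      exact hu
    subst hξ
    by_cases hm : m = 0
    · subst hm
      simp
    · simp [hm]

variable [MeasurableSpace E] [BorelSpace E]

/-- Decay for one elliptic system. -/
theorem decayU {O : Set E} (hO : IsOpen O) {b : J → E}
    {c : Fin m → Fin m → J → J → E → ℂ} {d : Fin m → Fin m → J → E → ℂ}
    {e : Fin m → Fin m → E → ℂ} (hc : ∀ p q i j, ContDiffOn ℝ ∞ (c p q i j) O)
    (hd : ∀ p q i, ContDiffOn ℝ ∞ (d p q i) O) (he : ∀ p q, ContDiffOn ℝ ∞ (e p q) O)
    (hne : ∀ x ∈ O, ∀ ξ : E, ξ ≠ 0 → (Matrix.of fun p q : Fin m => ∑ i, ∑ j, c p q i j x *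
      (((⟪b i, ξ⟫ : ℝ) : ℂ) * ((⟪b j, ξ⟫ : ℝ) : ℂ))).det ≠ 0)
    {w G : Fin m → E → ℂ} (hw : ∀ q, ∀ K : Set E, IsCompact K → K ⊆ O → IntegrableOn (w q) K)
    (hG : ∀ p, ContDiffOn ℝ ∞ (G p) O)
    (weak : ∀ φ : Fin m → E → ℂ, (∀ p, ContDiff ℝ ∞ (φ p) ∧ HasCompactSupport (φ p) ∧
      tsupport (φ p) ⊆ O) →
      ∫ x, ∑ q, w q x * ∑ p, Lop b (c p q) (d p q) (e p q) (φ p) x = ∫ x, ∑ p, G p x * φ p x)
    (q : Fin m) (χ : E → ℂ) (hχ : ContDiff ℝ ∞ χ) (hχc : HasCompactSupport χ)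
    (hχO : tsupport χ ⊆ O) :
    Integrable (fun x => χ x * w q x) ∧
      ∀ N : ℕ, ∃ C : ℝ, ∀ ξ, ‖𝓕 (fun x => χ x * w q x) ξ‖ ≤ C * ((1 + ‖ξ‖) ^ N)⁻¹ := by
  set K : Set E := tsupport χ with hK
  have hKc : IsCompact K := hχc
  have hχ0 : ∀ x ∉ K, χ x = 0 := fun x hx => image_eq_zero_of_notMem_tsupport hx
  have hint : Integrable (fun x => χ x * w q x) := by
    obtain ⟨M, hM⟩ := hKc.exists_bound_of_continuousOn hχ.continuous.continuousOn
    have h3 : IntegrableOn (fun x => χ x * w q x) K := by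
      refine Integrable.bdd_mul (c := M) (hw q K hKc hχO) hχ.continuous.aestronglyMeasurable ?_
      exact (ae_restrict_iff' hKc.measurableSet).2 (Eventually.of_forall fun x hx => hM x hx)
    refine (integrableOn_iff_integrable_of_support_subset ?_).1 h3
    intro x hx
    by_contra hxK
    exact hx (by simp [hχ0 x hxK])
  refine ⟨hint, fun N => ?_⟩
  have hcf : ∀ {a : E → ℂ}, ContDiffOn ℝ ∞ a O → Cf O K (4 * N) (fun _ : Unit => a) :=
    fun ha => cf_of_smooth hO hKc hχO _ ha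
  obtain ⟨C, hC, h1⟩ := decay (T := Unit) (O := O) (K := K) (L := 4 * N) (b := b)
    (c := fun p q i j _ => c p q i j) (d := fun p q i _ => d p q i) (e := fun p q _ => e p q)
    hO hKc hχO (fun p q i j => hcf (hc p q i j)) (fun p q i => hcf (hd p q i))
    (fun p q => hcf (he p q)) (fun _ => hne) (ell_of_ne hKc hχO hc hne)
    (χ := fun _ => χ) (hcf hχ.contDiffOn) (fun _ => hχ0) (w := fun q _ => w q)
    (G := fun p _ => G p) (fun q _ => hw q K hKc hχO)
    (B := ∑ q, ∫ x in K, ‖w q x‖)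
    (fun q _ => Finset.single_le_sum (f := fun q => ∫ x in K, ‖w q x‖)
      (fun q _ => integral_nonneg fun x => norm_nonneg _) (Finset.mem_univ q))
    (fun p => hcf (hG p))
    (fun _ φ hφ hφ0 => weak φ fun p => ⟨hφ p, HasCompactSupport.intro hKc (hφ0 p),
      (closure_minimal (fun x hx => by
        by_contra hxK
        exact hx (hφ0 p x hxK)) hKc.isClosed).trans hχO⟩) N le_rfl q
  set B : ℝ := ∫ x, ‖χ x * w q x‖ with hB
  have hB0 : 0 ≤ B := integral_nonneg fun x => norm_nonneg _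
  have hF : ∀ ξ, ‖𝓕 (fun x => χ x * w q x) ξ‖ ≤ B := fun ξ => by
    rw [fourier_eq_ex]
    refine (norm_integral_le_integral_norm _).trans (le_of_eq ?_)
    refine integral_congr_ae (Eventually.of_forall fun x => ?_)
    simp only [norm_mul, norm_ex, one_mul]
  refine ⟨(B + C) * 2 ^ N, fun ξ => ?_⟩
  have hpos : 0 < (1 + ‖ξ‖) ^ N := by positivity
  rw [← div_eq_mul_inv, le_div_iff₀ hpos]
  by_cases hξ : 1 ≤ ‖ξ‖
  · have h2 := h1 () ξ hξ
    have h3 : (1 + ‖ξ‖) ^ N ≤ 2 ^ N * ‖ξ‖ ^ N := by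
      rw [← mul_pow]
      exact pow_le_pow_left₀ (by positivity) (by linarith) N
    have h4 : 0 < ‖ξ‖ := by linarith
    calc ‖𝓕 (fun x => χ x * w q x) ξ‖ * (1 + ‖ξ‖) ^ N
        ≤ (C * ‖ξ‖ ^ (-(N : ℤ))) * (2 ^ N * ‖ξ‖ ^ N) :=
          mul_le_mul h2 h3 (by positivity) (by positivity)
      _ = C * 2 ^ N := by
          rw [zpow_neg, zpow_natCast]
          field_simp
      _ ≤ (B + C) * 2 ^ N := by
          refine mul_le_mul_of_nonneg_right (by linarith) (by positivity)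
  · have h3 : (1 + ‖ξ‖) ^ N ≤ 2 ^ N :=
      pow_le_pow_left₀ (by positivity) (by linarith) N
    calc ‖𝓕 (fun x => χ x * w q x) ξ‖ * (1 + ‖ξ‖) ^ N ≤ B * 2 ^ N :=
          mul_le_mul (hF ξ) h3 (by positivity) hB0
      _ ≤ (B + C) * 2 ^ N := by
          refine mul_le_mul_of_nonneg_right (by linarith) (by positivity)

end Vale.Agent.P088.R2.H464
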